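import Vale.Agent.P287.R2.H579.Cyc

/-!
P287: cyclic cubic fourfolds (helper809), the planes through a point `p` of the fixed hyperplane
which is not an Eckardt point. On the tangent space `N` at `p` the quadratic form `T p x x` has
`p` and `o` in its radical, and for every plane `P` through `p` the space `P ⊔ span {o}` is
isotropic; a quadratic form on `N` vanishing on three hyperplanes is zero.
-/

namespace Vale.Agent.P287.R2.H809

open Module Submodule
open Vale.Agent.P287.R2.H248 Vale.Agent.P287.R2.H622 Vale.Agent.P287.R2.H579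

variable {V : Type*} [AddCommGroup V] [Module ℂ V] {S : Tri V} {o : V} {l : V →ₗ[ℂ] ℂ}

lemma exists_avoid {W W1 W2 : Submodule ℂ V} (h1 : ¬ W ≤ W1) (h2 : ¬ W ≤ W2) :
    ∃ c ∈ W, c ∉ W1 ∧ c ∉ W2 := by
  obtain ⟨x, hx, hx1⟩ := Set.not_subset.mp h1
  obtain ⟨y, hy, hy2⟩ := Set.not_subset.mp h2
  by_cases hx2 : x ∈ W2
  · by_cases hy1 : y ∈ W1
    · refine ⟨x + y, W.add_mem hx hy, fun h => hx1 ?_, fun h => hy2 ?_⟩
      · have := W1.sub_mem h hy1
        rwa [add_sub_cancel_right] at this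
      · have := W2.sub_mem h hx2
        rwa [add_sub_cancel_left] at this
    · exact ⟨y, hy, hy1, hy2⟩
  · exact ⟨x, hx, hx1, hx2⟩

/-- A symmetric bilinear form on a five-dimensional space with three isotropic hyperplanes is
zero. -/
lemma form_zero [FiniteDimensional ℂ V] {N W1 W2 W3 : Submodule ℂ V}
    (B : V →ₗ[ℂ] V →ₗ[ℂ] ℂ) (hB : ∀ x y, B x y = B y x) (hN : finrank ℂ N = 5)
    (h1 : finrank ℂ W1 = 4) (h2 : finrank ℂ W2 = 4) (h3 : finrank ℂ W3 = 4)
    (l1 : W1 ≤ N) (l2 : W2 ≤ N) (l3 : W3 ≤ N)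
    (i1 : ∀ x ∈ W1, ∀ y ∈ W1, B x y = 0) (i2 : ∀ x ∈ W2, ∀ y ∈ W2, B x y = 0)
    (i3 : ∀ x ∈ W3, ∀ y ∈ W3, B x y = 0)
    (n12 : W1 ≠ W2) (n31 : W3 ≠ W1) (n32 : W3 ≠ W2) :
    ∀ x ∈ N, ∀ y ∈ N, B x y = 0 := by
  have g12 : ¬ W1 ≤ W2 := fun h => n12 (Submodule.eq_of_le_of_finrank_eq h (by rw [h1, h2]))
  have g21 : ¬ W2 ≤ W1 := fun h =>
    n12 (Submodule.eq_of_le_of_finrank_eq h (by rw [h1, h2])).symm
  have g31 : ¬ W3 ≤ W1 := fun h => n31 (Submodule.eq_of_le_of_finrank_eq h (by rw [h3, h1]))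
  have g32 : ¬ W3 ≤ W2 := fun h => n32 (Submodule.eq_of_le_of_finrank_eq h (by rw [h3, h2]))
  obtain ⟨a, ha, ha2⟩ := Set.not_subset.mp g12
  obtain ⟨b, hb, hb1⟩ := Set.not_subset.mp g21
  obtain ⟨c, hc, hc1, hc2⟩ := exists_avoid g31 g32
  have hdim := Submodule.finrank_sup_add_finrank_inf_eq W1 W2
  rw [h1, h2] at hdim
  have hle : finrank ℂ ↥(W1 ⊔ W2) ≤ 5 := by
    rw [← hN]
    exact Submodule.finrank_mono (sup_le l1 l2)
  have hge : 5 ≤ finrank ℂ ↥(W1 ⊔ W2) := by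
    have hb' := finrank_sup_single hb1
    have hb2 : finrank ℂ ↥(W1 ⊔ span ℂ {b}) ≤ finrank ℂ ↥(W1 ⊔ W2) := by
      apply Submodule.finrank_mono
      refine sup_le_sup_left ?_ _
      rw [span_singleton_le_iff_mem]
      exact hb
    omega
  have hsup : W1 ⊔ W2 = N :=
    Submodule.eq_of_le_of_finrank_eq (sup_le l1 l2) (by rw [hN]; omega)
  have hD : finrank ℂ ↥(W1 ⊓ W2) = 3 := by omega
  have haD : a ∉ W1 ⊓ W2 := fun h => ha2 h.2
  have hbD : b ∉ W1 ⊓ W2 := fun h => hb1 h.1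
  have e1 : W1 ⊓ W2 ⊔ span ℂ {a} = W1 := by
    apply Submodule.eq_of_le_of_finrank_eq
    · refine sup_le inf_le_left ?_
      rw [span_singleton_le_iff_mem]
      exact ha
    · rw [finrank_sup_single haD, hD, h1]
  have e2 : W1 ⊓ W2 ⊔ span ℂ {b} = W2 := by
    apply Submodule.eq_of_le_of_finrank_eq
    · refine sup_le inf_le_right ?_
      rw [span_singleton_le_iff_mem]
      exact hb
    · rw [finrank_sup_single hbD, hD, h2]
  have dec : ∀ x ∈ N, ∃ d ∈ W1 ⊓ W2, ∃ s t : ℂ, x = d + s • a + t • b := by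
    intro x hx
    rw [← hsup] at hx
    obtain ⟨y, hy, z, hz, rfl⟩ := mem_sup.mp hx
    rw [← e1] at hy
    rw [← e2] at hz
    obtain ⟨y1, hy1, y2, hy2, rfl⟩ := mem_sup.mp hy
    obtain ⟨z1, hz1, z2, hz2, rfl⟩ := mem_sup.mp hz
    obtain ⟨s, rfl⟩ := mem_span_singleton.mp hy2
    obtain ⟨t, rfl⟩ := mem_span_singleton.mp hz2
    exact ⟨y1 + z1, Submodule.add_mem _ hy1 hz1, s, t, by abel⟩
  have val : ∀ d ∈ W1 ⊓ W2, ∀ d' ∈ W1 ⊓ W2, ∀ s t s' t' : ℂ,
      B (d + s • a + t • b) (d' + s' • a + t' • b) = (s * t' + t * s') * B a b := by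
    intro d hd d' hd' s t s' t'
    simp only [map_add, map_smul, LinearMap.add_apply, LinearMap.smul_apply, smul_eq_mul]
    rw [i1 d hd.1 d' hd'.1, i1 d hd.1 a ha, i2 d hd.2 b hb, i1 a ha d' hd'.1, i1 a ha a ha,
      i2 b hb d' hd'.2, i2 b hb b hb, hB b a]
    ring
  have hab : B a b = 0 := by
    obtain ⟨d, hd, s, t, rfl⟩ := dec c (l3 hc)
    have hz := i3 _ hc _ hc
    rw [val d hd d hd] at hz
    have hs : s ≠ 0 := by
      rintro rfl
      apply hc2
      rw [zero_smul, add_zero]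
      exact W2.add_mem hd.2 (W2.smul_mem _ hb)
    have ht : t ≠ 0 := by
      rintro rfl
      apply hc1
      rw [zero_smul, add_zero]
      exact W1.add_mem hd.1 (W1.smul_mem _ ha)
    have hne : s * t + t * s ≠ 0 := by
      have : s * t + t * s = 2 * (s * t) := by ring
      rw [this]
      exact mul_ne_zero two_ne_zero (mul_ne_zero hs ht)
    exact (mul_eq_zero.mp hz).resolve_left hne
  intro x hx y hy
  obtain ⟨d, hd, s, t, rfl⟩ := dec x hx
  obtain ⟨d', hd', s', t', rfl⟩ := dec y hy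
  rw [val d hd d' hd', hab, mul_zero]

/-- The vector `o` is in the radical of the form `T p x y`, for `p` in the hyperplane. -/
lemma o_radical (hC : Cyc S o l) {p : V} (hp : l p = 0) (x : V) : S.T p o x = 0 := by
  have hx : x = (x - l x • o) + l x • o := by abel
  have h0 : l (x - l x • o) = 0 := by
    rw [map_sub, map_smul, hC.lo, smul_eq_mul, mul_one, sub_self]
  rw [hx, map_add, map_smul, S.s12 p o, hC.oh p _ hp h0, S.s12 p o o, S.s23 o p o, hC.oo p hp,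
    smul_zero, add_zero]

/-- The point `o` is not on a plane of the cubic. -/
lemma o_not_mem (hS : S.Smooth) (hC : Cyc S o l) {P : Submodule ℂ V} (hP : Pl S P) : o ∉ P := by
  intro ho
  have h3 : S.T o o o = 0 := hP.2 o ho
  have h0 : o = 0 := by
    apply hS
    intro x
    have hx : x = (x - l x • o) + l x • o := by abel
    have h0 : l (x - l x • o) = 0 := by
      rw [map_sub, map_smul, hC.lo, smul_eq_mul, mul_one, sub_self]
    rw [hx, map_add, map_smul, hC.oo _ h0, h3, smul_zero, add_zero]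
  have h1 := hC.lo
  rw [h0, map_zero] at h1
  exact zero_ne_one h1

/-- **At a point of the fixed hyperplane which is not an Eckardt point, the planes of the cubic
lie in at most two of the spaces `P ⊔ span {o}`.** -/
theorem sup_of_not_eckardt [FiniteDimensional ℂ V] (hV : finrank ℂ V = 6) (hS : S.Smooth)
    (hC : Cyc S o l) {p : V} (hp0 : p ≠ 0) (hp : l p = 0) (hE : ¬ S.Eckardt p)
    {P1 P2 P3 : Submodule ℂ V} (h1 : Pl S P1) (h2 : Pl S P2) (h3 : Pl S P3)
    (hp1 : p ∈ P1) (hp2 : p ∈ P2) (hp3 : p ∈ P3)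
    (h12 : P1 ⊔ span ℂ {o} ≠ P2 ⊔ span ℂ {o}) :
    P3 ⊔ span ℂ {o} = P1 ⊔ span ℂ {o} ∨ P3 ⊔ span ℂ {o} = P2 ⊔ span ℂ {o} := by
  by_contra hcon
  push Not at hcon
  obtain ⟨h31, h32⟩ := hcon
  have hN : finrank ℂ ↥(tang S p) = 5 := by
    obtain ⟨g, hg⟩ : ∃ g, S.T p p g ≠ 0 := by
      by_contra hcon
      push Not at hcon
      exact hp0 (hS p hcon)
    have h5 := finrank_inf_ker (W := (⊤ : Submodule ℂ V)) (l := S.T p p) (w := g) mem_top hg
    rw [top_inf_eq, finrank_top, hV] at h5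
    have h6 : finrank ℂ ↥(LinearMap.ker (S.T p p)) = 5 := by omega
    exact h6
  have hon : ∀ P : Submodule ℂ V, Pl S P → p ∈ P → P ⊔ span ℂ {o} ≤ tang S p := by
    intro P hP hpP
    refine sup_le (le_tang hP.2 hpP) ?_
    rw [span_singleton_le_iff_mem, mem_tang, S.s23]
    exact o_radical hC hp p
  have hdim : ∀ P : Submodule ℂ V, Pl S P → finrank ℂ ↥(P ⊔ span ℂ {o}) = 4 := by
    intro P hP
    rw [finrank_sup_single (o_not_mem hS hC hP), hP.1]
  have hiso : ∀ P : Submodule ℂ V, Pl S P → p ∈ P → ∀ x ∈ P ⊔ span ℂ {o},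
      ∀ y ∈ P ⊔ span ℂ {o}, S.T p x y = 0 := by
    intro P hP hpP x hx y hy
    obtain ⟨x1, hx1, x2, hx2, rfl⟩ := mem_sup.mp hx
    obtain ⟨y1, hy1, y2, hy2, rfl⟩ := mem_sup.mp hy
    obtain ⟨s, rfl⟩ := mem_span_singleton.mp hx2
    obtain ⟨t, rfl⟩ := mem_span_singleton.mp hy2
    have a1 : S.T p x1 y1 = 0 := hP.2.three hpP hx1 hy1
    have a2 : S.T p x1 o = 0 := by rw [S.s23]; exact o_radical hC hp x1
    have a3 : S.T p o y1 = 0 := o_radical hC hp y1
    have a4 : S.T p o o = 0 := o_radical hC hp o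
    simp only [map_add, map_smul, LinearMap.add_apply, LinearMap.smul_apply, smul_eq_mul, a1, a2,
      a3, a4]
    ring
  apply hE
  refine ⟨hp0, h1.2 p hp1, fun h k hh hk => ?_⟩
  exact form_zero (S.T p) (fun x y => S.s23 p x y) hN (hdim P1 h1) (hdim P2 h2) (hdim P3 h3)
    (hon P1 h1 hp1) (hon P2 h2 hp2) (hon P3 h3 hp3) (hiso P1 h1 hp1) (hiso P2 h2 hp2)
    (hiso P3 h3 hp3) h12 h31 h32 h (mem_tang.mpr hh) k (mem_tang.mpr hk)

end Vale.Agent.P287.R2.H809
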